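import Mathlib
import Vale.Agent.Lib.P183.Defs
import Vale.Agent.Lib.P183.Bridge

/-!
# P183 (backup pipeline): the abstract classification theorem
-/

namespace Vale.Agent.Lib.P183.BK

open Vale.Agent.Lib.P183

section

variable {X ι : Type} [Finite X] (σ : ι → Equiv.Perm X)

theorem ucon_iff (θ : UCon (fun i => (σ i : X → X))) {g : Equiv.Perm X}
    (hg : g ∈ Subgroup.closure (Set.range σ)) (a b : X) : θ.1 a b ↔ θ.1 (g a) (g b) := by
  constructor
  · exact compat_closure σ θ.1 θ.2 g hg a b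
  · intro h
    have := compat_closure σ θ.1 θ.2 g⁻¹ (inv_mem hg) _ _ h
    have e1 : g⁻¹ (g a) = a := by simp
    have e2 : g⁻¹ (g b) = b := by simp
    rwa [e1, e2] at this

/-- the setwise stabiliser of the block of `x0` -/
def KS (x0 : X) (θ : UCon (fun i => (σ i : X → X))) : Subgroup (Equiv.Perm X) where
  carrier := {g | g ∈ Subgroup.closure (Set.range σ) ∧ θ.1 x0 (g x0)}
  one_mem' := ⟨one_mem _, θ.1.refl' _⟩
  mul_mem' := by
    rintro g h ⟨hg, hg'⟩ ⟨hh, hh'⟩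
    refine ⟨mul_mem hg hh, ?_⟩
    have := (ucon_iff σ θ hg _ _).1 hh'
    exact θ.1.trans' hg' this
  inv_mem' := by
    rintro g ⟨hg, hg'⟩
    refine ⟨inv_mem hg, ?_⟩
    have := (ucon_iff σ θ (inv_mem hg) _ _).1 hg'
    have e1 : g⁻¹ (g x0) = x0 := by simp
    rw [e1] at this
    exact θ.1.symm' this

theorem mem_KS {x0 : X} {θ : UCon (fun i => (σ i : X → X))} {g : Equiv.Perm X} :
    g ∈ KS σ x0 θ ↔ g ∈ Subgroup.closure (Set.range σ) ∧ θ.1 x0 (g x0) := Iff.rfl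

theorem KS_move {x0 : X} {θ : UCon (fun i => (σ i : X → X))} {g : Equiv.Perm X}
    (hg : g ∈ KS σ x0 θ) {y : X} (hy : θ.1 x0 y) : θ.1 x0 (g y) :=
  θ.1.trans' hg.2 ((ucon_iff σ θ hg.1 _ _).1 hy)

theorem KS_move_iff {x0 : X} {θ : UCon (fun i => (σ i : X → X))} {g : Equiv.Perm X}
    (hg : g ∈ KS σ x0 θ) {y : X} : θ.1 x0 (g y) ↔ θ.1 x0 y := by
  constructor
  · intro h
    have := KS_move σ (inv_mem hg) h
    have e1 : g⁻¹ (g y) = y := by simp
    rwa [e1] at this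
  · exact KS_move σ hg

theorem le_of_block (x0 : X) (htr : ∀ x, ∃ g ∈ Subgroup.closure (Set.range σ), g x0 = x)
    (θ θ' : UCon (fun i => (σ i : X → X))) (h : ∀ y, θ.1 x0 y → θ'.1 x0 y) : θ ≤ θ' := by
  intro u v huv
  obtain ⟨g, hg, rfl⟩ := htr u
  have h1 : θ.1 x0 (g⁻¹ v) := by
    have := (ucon_iff σ θ (inv_mem hg) _ _).1 huv
    have e1 : g⁻¹ (g x0) = x0 := by simp
    rwa [e1] at this
  have h2 := (ucon_iff σ θ' hg _ _).1 (h _ h1)
  have e2 : g (g⁻¹ v) = v := by simp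
  rwa [e2] at h2

theorem classify (x0 : X) {L : Type} [SemilatticeSup L] [OrderBot L]
    (Θ : L → UCon (fun i => (σ i : X → X))) (lab : X → L)
    (htr : ∀ x, ∃ g ∈ Subgroup.closure (Set.range σ), g x0 = x)
    (H0 : ∀ θ, Θ ⊥ ≤ θ)
    (H1 : ∀ x, (Θ (lab x)).1 x0 x)
    (H2 : ∀ x (θ : UCon (fun i => (σ i : X → X))), θ.1 x0 x → Θ (lab x) ≤ θ)
    (H3 : ∀ c c' (θ : UCon (fun i => (σ i : X → X))), Θ c ≤ θ → Θ c' ≤ θ → Θ (c ⊔ c') ≤ θ)
    (H4 : ∀ c c', Θ c ≤ Θ c' ↔ c ≤ c') :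
    Nonempty (L ≃o UCon (fun i => (σ i : X → X))) := by
  classical
  have : Fintype X := Fintype.ofFinite X
  have hsurj : Function.Surjective Θ := by
    intro θ
    let S : Finset X := Finset.univ.filter (fun x => θ.1 x0 x)
    refine ⟨S.sup lab, le_antisymm ?_ ?_⟩
    · refine Finset.sup_induction (p := fun c => Θ c ≤ θ) (H0 θ) (fun c hc c' hc' => H3 c c' θ hc hc')
        (fun x hx => H2 x θ ?_)
      exact (Finset.mem_filter.1 hx).2
    · refine le_of_block σ x0 htr _ _ (fun y hy => ?_)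
      have hy' : y ∈ S := Finset.mem_filter.2 ⟨Finset.mem_univ _, hy⟩
      have hle : Θ (lab y) ≤ Θ (S.sup lab) := (H4 _ _).2 (Finset.le_sup hy')
      exact hle (H1 y)
  have hinj : Function.Injective Θ := by
    intro c c' h
    exact le_antisymm ((H4 _ _).1 h.le) ((H4 _ _).1 h.ge)
  exact ⟨{ toEquiv := Equiv.ofBijective Θ ⟨hinj, hsurj⟩, map_rel_iff' := by
            intro c c'
            exact H4 c c' }⟩

end

end Vale.Agent.Lib.P183.BK
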