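import Mathlib

/-!
# P183: the seven element lattice `L7`
-/

namespace Vale.Agent.Lib.P183.BK

/-- the seven element lattice `L7` -/
inductive L7 : Type
  | bot | j1 | j2 | a | b | c | top
  deriving DecidableEq

/-- the order of `L7`: `bot` least, `top` greatest, `j1 < a`, `j2 < a`, `j1 < b` -/
def L7.le : L7 → L7 → Bool
  | .bot, _ => true
  | _, .top => true
  | .j1, .j1 => true
  | .j1, .a => true
  | .j1, .b => true
  | .j2, .j2 => true
  | .j2, .a => true
  | .a, .a => true
  | .b, .b => true
  | .c, .c => true
  | _, _ => false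

instance : LE L7 := ⟨fun x y => L7.le x y = true⟩

end Vale.Agent.Lib.P183.BK
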