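import Vale.Agent.Lib.P183.BK.Check

namespace Vale.Agent.Lib.P183.BK

theorem run_misc : chkMisc = true := by decide +kernel
theorem run_ord1 : allLt 36 chkOrd1 = true := by decide +kernel
theorem run_ord2 : allLt 960 chkOrd2 = true := by decide +kernel
theorem run_rep : allLt 847 chkRep = true := by decide +kernel

end Vale.Agent.Lib.P183.BK
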