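import Vale.Agent.Lib.P183.BK.Check

namespace Vale.Agent.Lib.P183.BK

theorem run_x0 : allLt 960 (fun q => chkX 0 q) = true := by decide +kernel
theorem run_x1 : allLt 960 (fun q => chkX 1 q) = true := by decide +kernel
theorem run_x2 : allLt 960 (fun q => chkX 2 q) = true := by decide +kernel
theorem run_x3 : allLt 960 (fun q => chkX 3 q) = true := by decide +kernel
theorem run_x4 : allLt 960 (fun q => chkX 4 q) = true := by decide +kernel
theorem run_x5 : allLt 960 (fun q => chkX 5 q) = true := by decide +kernel

end Vale.Agent.Lib.P183.BK
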