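import Vale.Agent.Lib.P183.BK.Check
import Vale.Agent.Lib.P183.BK.Run

namespace Vale.Agent.Lib.P183.BK

theorem run_x6 : allLt 960 (fun q => chkX 6 q) = true := by decide +kernel
theorem run_x7 : allLt 960 (fun q => chkX 7 q) = true := by decide +kernel
theorem run_x8 : allLt 960 (fun q => chkX 8 q) = true := by decide +kernel
theorem run_x9 : allLt 960 (fun q => chkX 9 q) = true := by decide +kernel
theorem run_x10 : allLt 960 (fun q => chkX 10 q) = true := by decide +kernel
theorem run_x11 : allLt 960 (fun q => chkX 11 q) = true := by decide +kernel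

end Vale.Agent.Lib.P183.BK
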