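import Vale.Agent.Lib.P183.BK.Check
import Vale.Agent.Lib.P183.BK.RunX0

namespace Vale.Agent.Lib.P183.BK

theorem run_x12 : allLt 960 (fun q => chkX 12 q) = true := by decide +kernel
theorem run_x13 : allLt 960 (fun q => chkX 13 q) = true := by decide +kernel
theorem run_x14 : allLt 960 (fun q => chkX 14 q) = true := by decide +kernel
theorem run_x15 : allLt 960 (fun q => chkX 15 q) = true := by decide +kernel
theorem run_x16 : allLt 960 (fun q => chkX 16 q) = true := by decide +kernel
theorem run_x17 : allLt 960 (fun q => chkX 17 q) = true := by decide +kernel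

end Vale.Agent.Lib.P183.BK
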