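import Vale.Agent.Lib.P183.BK.Check
import Vale.Agent.Lib.P183.BK.RunX1

namespace Vale.Agent.Lib.P183.BK

theorem run_x18 : allLt 960 (fun q => chkX 18 q) = true := by decide +kernel
theorem run_x19 : allLt 960 (fun q => chkX 19 q) = true := by decide +kernel
theorem run_x20 : allLt 960 (fun q => chkX 20 q) = true := by decide +kernel
theorem run_x21 : allLt 960 (fun q => chkX 21 q) = true := by decide +kernel
theorem run_x22 : allLt 960 (fun q => chkX 22 q) = true := by decide +kernel
theorem run_x23 : allLt 960 (fun q => chkX 23 q) = true := by decide +kernel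

end Vale.Agent.Lib.P183.BK
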