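import Vale.Agent.Lib.P183.BK.Check
import Vale.Agent.Lib.P183.BK.RunX2

namespace Vale.Agent.Lib.P183.BK

theorem run_x24 : allLt 960 (fun q => chkX 24 q) = true := by decide +kernel
theorem run_x25 : allLt 960 (fun q => chkX 25 q) = true := by decide +kernel
theorem run_x26 : allLt 960 (fun q => chkX 26 q) = true := by decide +kernel
theorem run_x27 : allLt 960 (fun q => chkX 27 q) = true := by decide +kernel
theorem run_x28 : allLt 960 (fun q => chkX 28 q) = true := by decide +kernel
theorem run_x29 : allLt 960 (fun q => chkX 29 q) = true := by decide +kernel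

end Vale.Agent.Lib.P183.BK
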