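import Vale.Agent.Lib.P183.BK.Check
import Vale.Agent.Lib.P183.BK.RunX3

namespace Vale.Agent.Lib.P183.BK

theorem run_x30 : allLt 960 (fun q => chkX 30 q) = true := by decide +kernel
theorem run_x31 : allLt 960 (fun q => chkX 31 q) = true := by decide +kernel
theorem run_x32 : allLt 960 (fun q => chkX 32 q) = true := by decide +kernel
theorem run_x33 : allLt 960 (fun q => chkX 33 q) = true := by decide +kernel
theorem run_x34 : allLt 960 (fun q => chkX 34 q) = true := by decide +kernel
theorem run_x35 : allLt 960 (fun q => chkX 35 q) = true := by decide +kernel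

end Vale.Agent.Lib.P183.BK
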