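import Vale.Agent.Lib.P183.BK.Abstract
import Vale.Agent.Lib.P183.BK.Run

/-!
# P183 (backup pipeline): soundness of the checker, part 1 (the group action)
-/

namespace Vale.Agent.Lib.P183.BK

open Vale.Agent.Lib.P183

theorem force_eq {α : Type} (n : ℕ) (f : ℕ → α) : force n f = f n := by cases n <;> rfl

theorem allLt_iff (n : ℕ) (f : ℕ → Bool) : allLt n f = true ↔ ∀ i < n, f i = true := by
  induction n with
  | zero => simp [allLt]
  | succ n ih =>
    simp only [allLt, Bool.and_eq_true, ih]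
    constructor
    · rintro ⟨h1, h2⟩ i hi
      rcases Nat.lt_succ_iff_lt_or_eq.1 hi with h | rfl
      · exact h2 i h
      · exact h1
    · intro h
      exact ⟨h n (Nat.lt_succ_self n), fun i hi => h i (Nat.lt_succ_of_lt hi)⟩

theorem allL_iff (f : L7 → Bool) : allL f = true ↔ ∀ l, f l = true := by
  simp only [allL, Bool.and_eq_true]
  constructor
  · rintro ⟨⟨⟨⟨⟨⟨h0, h1⟩, h2⟩, h3⟩, h4⟩, h5⟩, h6⟩ l
    cases l <;> assumption
  · intro h
    exact ⟨⟨⟨⟨⟨⟨h _, h _⟩, h _⟩, h _⟩, h _⟩, h _⟩, h _⟩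

/-- the carrier of the algebra -/
abbrev XX : Type := Fin 36 × Fin 960

def code (x : XX) : ℕ × ℕ := (x.1.val, x.2.val)

theorem code_inj : Function.Injective code := by
  intro x y h
  simp only [code, Prod.mk.injEq] at h
  exact Prod.ext (Fin.ext h.1) (Fin.ext h.2)

theorem f1_lt (k p : ℕ) : f1 k p < 36 := Nat.mod_lt _ (by norm_num)
theorem f2_lt (k q : ℕ) : f2 k q < 960 := Nat.mod_lt _ (by norm_num)

/-- the three unary operations -/
def op (k : Fin 3) (x : XX) : XX :=
  (⟨f1 k.val x.1.val, f1_lt _ _⟩, ⟨f2 k.val x.2.val, f2_lt _ _⟩)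

theorem code_op (k : Fin 3) (x : XX) : code (op k x) = stepN k.val (code x) := rfl

def x0 : XX := (0, 0)

theorem code_x0 : code x0 = (0, 0) := rfl

theorem exists_code {c : ℕ × ℕ} (h1 : c.1 < 36) (h2 : c.2 < 960) : ∃ x : XX, code x = c :=
  ⟨(⟨c.1, h1⟩, ⟨c.2, h2⟩), rfl⟩

theorem stepN_iter (k n : ℕ) (c : ℕ × ℕ) :
    (stepN k)^[n] c = ((f1 k)^[n] c.1, (f2 k)^[n] c.2) := by
  induction n generalizing c with
  | zero => rfl
  | succ n ih =>
    simp only [Function.iterate_succ_apply]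
    rw [ih]
    rfl

theorem code_op_iter (k : Fin 3) (n : ℕ) (x : XX) :
    code ((op k)^[n] x) = (stepN k.val)^[n] (code x) := by
  induction n generalizing x with
  | zero => rfl
  | succ n ih =>
    simp only [Function.iterate_succ_apply]
    rw [ih, code_op]

theorem ord1 (p : ℕ) (hp : p < 36) :
    (f1 0)^[7] p = p ∧ (f1 1)^[6] p = p ∧ (f1 2)^[2] p = p := by
  have h := (allLt_iff _ _).1 run_ord1 p hp
  simp only [chkOrd1, Bool.and_eq_true, beq_iff_eq] at h
  exact ⟨h.1.1, h.1.2, h.2⟩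

theorem ord2 (q : ℕ) (hq : q < 960) :
    (f2 0)^[7] q = q ∧ (f2 1)^[6] q = q ∧ (f2 2)^[2] q = q := by
  have h := (allLt_iff _ _).1 run_ord2 q hq
  simp only [chkOrd2, Bool.and_eq_true, beq_iff_eq] at h
  exact ⟨h.1.1, h.1.2, h.2⟩

theorem op_period (k : Fin 3) : ∃ n, ∀ x, (op k)^[n + 1] x = x := by
  match k with
  | ⟨0, _⟩ =>
    refine ⟨6, fun x => code_inj ?_⟩
    rw [code_op_iter, stepN_iter]
    exact Prod.ext (ord1 _ x.1.isLt).1 (ord2 _ x.2.isLt).1
  | ⟨1, _⟩ =>
    refine ⟨5, fun x => code_inj ?_⟩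
    rw [code_op_iter, stepN_iter]
    exact Prod.ext (ord1 _ x.1.isLt).2.1 (ord2 _ x.2.isLt).2.1
  | ⟨2, _⟩ =>
    refine ⟨1, fun x => code_inj ?_⟩
    rw [code_op_iter, stepN_iter]
    exact Prod.ext (ord1 _ x.1.isLt).2.2 (ord2 _ x.2.isLt).2.2

theorem op_bij (k : Fin 3) : Function.Bijective (op k) := by
  obtain ⟨n, hn⟩ := op_period k
  constructor
  · intro a b hab
    have ha := hn a
    have hb := hn b
    rw [Function.iterate_succ_apply] at ha hb
    rw [← ha, ← hb, hab]
  · intro y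
    refine ⟨(op k)^[n] y, ?_⟩
    have := hn y
    rwa [Function.iterate_succ_apply'] at this

/-- the operations as permutations -/
noncomputable def sg (k : Fin 3) : Equiv.Perm XX := Equiv.ofBijective (op k) (op_bij k)

theorem sg_apply (k : Fin 3) (x : XX) : sg k x = op k x := rfl

/-- `F` is the action (in codes) of an element of the subgroup `S` -/
def Real (S : Subgroup (Equiv.Perm XX)) (F : ℕ × ℕ → ℕ × ℕ) : Prop :=
  ∃ g ∈ S, ∀ x : XX, code (g x) = F (code x)

theorem real_id (S : Subgroup (Equiv.Perm XX)) : Real S (fun c => c) :=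
  ⟨1, one_mem _, fun _ => rfl⟩

theorem real_comp {S : Subgroup (Equiv.Perm XX)} {F F' : ℕ × ℕ → ℕ × ℕ} (h : Real S F)
    (h' : Real S F') : Real S (fun c => F' (F c)) := by
  obtain ⟨g, hg, hgc⟩ := h
  obtain ⟨g', hg', hgc'⟩ := h'
  exact ⟨g' * g, mul_mem hg' hg, fun x => by rw [Equiv.Perm.mul_apply, hgc', hgc]⟩

theorem real_iter {S : Subgroup (Equiv.Perm XX)} {F : ℕ × ℕ → ℕ × ℕ} (h : Real S F) (n : ℕ) :
    Real S (F^[n]) := by
  induction n with
  | zero => exact real_id S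
  | succ n ih =>
    have e : F^[n + 1] = fun c => F^[n] (F c) := by
      funext c; exact Function.iterate_succ_apply F n c
    rw [e]; exact real_comp h ih

theorem real_evW {S : Subgroup (Equiv.Perm XX)} (h : ∀ k, Real S (stepN k)) :
    ∀ n w, Real S (evW n w) := by
  intro n
  induction n with
  | zero => intro w; exact real_id S
  | succ n ih =>
    intro w
    by_cases hw : w ≤ 1
    · have : evW (n + 1) w = fun c => c := by
        funext c; simp [evW, hw]
      rw [this]; exact real_id S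
    · have : evW (n + 1) w = fun c => evW n (w / 4) (stepN (w % 4) c) := by
        funext c; simp [evW, hw]
      rw [this]; exact real_comp (h _) (ih _)

theorem real_mv {S : Subgroup (Equiv.Perm XX)} {w1 w2 : ℕ} (h0 : Real S (stepN 0))
    (h1 : Real S (stepN 1)) (hw1 : Real S (evW 20 w1)) (hw2 : Real S (evW 20 w2)) :
    ∀ d, Real S (mv w1 w2 d)
  | 0 => h0
  | 1 => h1
  | 2 => hw1
  | _ + 3 => hw2

theorem real_evD {S : Subgroup (Equiv.Perm XX)} {w1 w2 : ℕ} (h0 : Real S (stepN 0))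
    (h1 : Real S (stepN 1)) (hw1 : Real S (evW 20 w1)) (hw2 : Real S (evW 20 w2)) :
    ∀ n D, Real S (evD w1 w2 n D) := by
  intro n
  induction n with
  | zero => intro D; exact real_id S
  | succ n ih =>
    intro D
    by_cases hD : D ≤ 1
    · have : evD w1 w2 (n + 1) D = fun c => c := by
        funext c; simp [evD, hD]
      rw [this]; exact real_id S
    · have : evD w1 w2 (n + 1) D = fun c => evD w1 w2 n (D / 4) (mv w1 w2 (D % 4) c) := by
        funext c; simp [evD, hD]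
      rw [this]; exact real_comp (real_mv h0 h1 hw1 hw2 _) (ih _)

/-- the group generated by the three permutations -/
abbrev GG : Subgroup (Equiv.Perm XX) := Subgroup.closure (Set.range sg)

theorem real_step : ∀ k, Real GG (stepN k)
  | 0 => ⟨sg 0, Subgroup.subset_closure ⟨0, rfl⟩, fun _ => rfl⟩
  | 1 => ⟨sg 1, Subgroup.subset_closure ⟨1, rfl⟩, fun _ => rfl⟩
  | _ + 2 => ⟨sg 2, Subgroup.subset_closure ⟨2, rfl⟩, fun _ => rfl⟩

/-- the congruences of the algebra -/
abbrev CC : Type := UCon (fun i => (sg i : XX → XX))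

theorem real_K_of_src (θ : CC) {F : ℕ × ℕ → ℕ × ℕ} (h : Real GG F) {y : XX}
    (hy : code y = F (0, 0)) (hθ : θ.1 x0 y) : Real (KS sg x0 θ) F := by
  obtain ⟨g, hg, hgc⟩ := h
  have e : g x0 = y := code_inj (by rw [hgc, hy, code_x0])
  refine ⟨g, ⟨hg, ?_⟩, hgc⟩
  rw [e]; exact hθ

theorem of_real_K (θ : CC) {F : ℕ × ℕ → ℕ × ℕ} (h : Real (KS sg x0 θ) F) {y : XX}
    (hy : code y = F (0, 0)) : θ.1 x0 y := by
  obtain ⟨g, hg, hgc⟩ := h
  have e : g x0 = y := code_inj (by rw [hgc, hy, code_x0])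
  rw [← e]; exact hg.2

end Vale.Agent.Lib.P183.BK
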